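import Vale.Agent.P329.H962.Rows
import Mathlib.Data.ZMod.Basic
import Mathlib.Algebra.Field.ZMod
import Mathlib.Tactic

/-!
# The return stage (rows B0 - B3)
-/

set_option autoImplicit false
set_option linter.unusedSectionVars false

namespace Vale.Agent.P329.H560

open H259 (pw pw_zero pw_succ pw_one pw_add pw_succ' pw_mul pw_length)
open H962

section sums

variable {α : Type} {p : ℕ}

/-- Sum over the nonempty suffixes of `S`, over `c`. -/
def NS (f : List α → ZMod p) : List α → List α → ZMod p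
  | [], _ => 0
  | x :: S, c => NS f S c + f (x :: (S ++ c))

theorem N_append (f : List α → ZMod p) (S c : List α) : N f (S ++ c) = NS f S c + N f c := by
  induction S with
  | nil => simp [NS]
  | cons x S ih => rw [List.cons_append, N, ih, NS]; ring

theorem NS_append (f : List α → ZMod p) (A B c : List α) :
    NS f (A ++ B) c = NS f A (B ++ c) + NS f B c := by
  induction A with
  | nil => simp [NS]
  | cons x A ih => rw [List.cons_append, NS, ih, NS, List.append_assoc]; ring

theorem nc_append (w : List α → ZMod p) (A B c : List α) :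
    nc w (A ++ B) c = nc w A (B ++ c) + nc w B c := by
  induction A with
  | nil => simp [nc]
  | cons x A ih => rw [List.cons_append, nc, ih, nc, List.append_assoc]; ring

theorem NS_congr {f g : List α → ZMod p} {S c c' : List α}
    (h : ∀ B, B <:+ S → B ≠ [] → f (B ++ c) = g (B ++ c')) : NS f S c = NS g S c' := by
  induction S with
  | nil => rfl
  | cons x S ih =>
    rw [NS, NS, ih (fun B e hB => h B (e.trans (List.suffix_cons x S)) hB)]
    have := h (x :: S) List.suffix_rfl (by simp)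
    rw [List.cons_append, List.cons_append] at this
    rw [this]

theorem NS_zero {f : List α → ZMod p} {S c : List α}
    (h : ∀ B, B <:+ S → B ≠ [] → f (B ++ c) = 0) : NS f S c = 0 := by
  induction S with
  | nil => rfl
  | cons x S ih =>
    rw [NS, ih (fun B e hB => h B (e.trans (List.suffix_cons x S)) hB)]
    have := h (x :: S) List.suffix_rfl (by simp)
    rw [List.cons_append] at this
    rw [this, add_zero]

theorem NS_ne {f : List α → ZMod p} {S c : List α} (h : NS f S c ≠ 0) :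
    ∃ B, B <:+ S ∧ B ≠ [] ∧ f (B ++ c) ≠ 0 := by
  by_contra hno
  push Not at hno
  exact h (NS_zero hno)

theorem Rt.ns_eq {w f : List α → ZMod p} (h : Rt w f) {c c' : List α} (hc : w c ≠ 0)
    (hc' : w c' ≠ 0) (S : List α) : NS f S c = NS f S c' :=
  NS_congr fun B _ hB => h c c' B hc hc' hB

theorem Rt.nc_eq {w : List α → ZMod p} (h : Rt w w) {c c' : List α} (hc : w c ≠ 0)
    (hc' : w c' ≠ 0) (S : List α) : nc w S c = nc w S c' := by
  induction S with
  | nil => rfl
  | cons x S ih =>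
    have h1 := h c c' (x :: S) hc hc' (by simp)
    rw [List.cons_append, List.cons_append] at h1
    rw [nc, nc, ih, h1]

theorem nc_mono {w w' : List α → ZMod p} (h : ∀ X, w' X ≠ 0 → w X ≠ 0) (S c : List α) :
    nc w' S c ≤ nc w S c := by
  induction S with
  | nil => exact le_rfl
  | cons x S ih =>
    rw [nc, nc]
    by_cases h1 : w (x :: (S ++ c)) = 0
    · have h2 : w' (x :: (S ++ c)) = 0 := by
        by_contra h3
        exact h _ h3 h1
      rw [if_pos h1, if_pos h2]
      omega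
    · rw [if_neg h1]
      split_ifs <;> omega

theorem pw_conj (v1 v2 : List α) (n : ℕ) :
    pw (v1 ++ v2) n ++ v1 = v1 ++ pw (v2 ++ v1) n := by
  induction n with
  | zero => simp
  | succ n ih => rw [pw_succ, pw_succ, List.append_assoc, ih]; simp

theorem pw_split (v : List α) : ∀ (n : ℕ) (P Q : List α), pw v (n + 1) = P ++ Q →
    ∃ i j v1 v2, v = v1 ++ v2 ∧ P = pw v i ++ v1 ∧ Q = v2 ++ pw v j ∧ i + j = n := by
  intro n
  induction n with
  | zero =>
    intro P Q h
    rw [pw_one] at h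
    exact ⟨0, 0, P, Q, h, by simp, by simp, rfl⟩
  | succ n ih =>
    intro P Q h
    rw [pw_succ] at h
    rcases List.append_eq_append_iff.1 h with ⟨as, h1, h2⟩ | ⟨bs, h1, h2⟩
    · obtain ⟨i, j, v1, v2, hv, hp, hq, hij⟩ := ih as Q h2
      exact ⟨i + 1, j, v1, v2, hv, by rw [h1, hp, pw_succ, List.append_assoc], hq, by omega⟩
    · exact ⟨0, n + 1, P, bs, h1, by simp, h2, by omega⟩

/-- all multiples of a return time are return times -/
theorem Rt.pwc {w : List α → ZMod p} (h : Rt w w) {c u : List α} (hu : u ≠ []) (hc : w c ≠ 0)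
    (h1 : w (u ++ c) ≠ 0) (n : ℕ) : w (pw u n ++ c) ≠ 0 := by
  induction n with
  | zero => simpa using hc
  | succ n ih =>
    rw [pw_succ, List.append_assoc, h _ c u ih hc hu]
    exact h1

theorem Rt.N_pw {w f : List α → ZMod p} (h : Rt w w) (hf : Rt w f) {c u : List α} (hu : u ≠ [])
    (hc : w c ≠ 0) (h1 : w (u ++ c) ≠ 0) (n : ℕ) :
    N f (pw u n ++ c) = (n : ZMod p) * NS f u c + N f c := by
  induction n with
  | zero => simp
  | succ n ih =>
    rw [pw_succ, List.append_assoc, N_append, ih, Rt.ns_eq hf (Rt.pwc h hu hc h1 n) hc u]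
    push_cast
    ring

theorem Rt.le_nc {w : List α → ZMod p} (h : Rt w w) {c u : List α} (hu : u ≠ [])
    (hc : w c ≠ 0) (h1 : w (u ++ c) ≠ 0) (n : ℕ) : n ≤ nc w (pw u n) c := by
  induction n with
  | zero => exact Nat.zero_le _
  | succ n ih =>
    rw [pw_succ, nc_append, Rt.nc_eq h (Rt.pwc h hu hc h1 n) hc u]
    have : 1 ≤ nc w u c := by
      cases u with
      | nil => exact absurd rfl hu
      | cons x u =>
        rw [nc]
        rw [List.cons_append] at h1
        rw [if_neg h1]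
        omega
    omega

theorem Unc.mono {w : List α → ZMod p} {V X B : List α} (h : Unc w V X) (e : B <:+ V) :
    Unc w B X := fun B' e' hB' => h B' (e'.trans e) hB'

theorem not_Unc {w : List α → ZMod p} {V X : List α} (h : ¬ Unc w V X) :
    ∃ A B, V = A ++ B ∧ B ≠ [] ∧ w (B ++ X) ≠ 0 := by
  unfold Unc at h
  push Not at h
  obtain ⟨B, ⟨A, e⟩, h1, h2⟩ := h
  exact ⟨A, B, e.symm, h1, h2⟩

theorem unc_pw {w : List α → ZMod p} {v X : List α} {n m : ℕ} (h : Unc w (pw v n) X)
    (hm : m ≤ n) : Unc w (pw v m) X :=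
  Unc.mono h ⟨pw v (n - m), by rw [← pw_add]; congr 1; omega⟩

end sums

section pump

variable {α : Type} {p : ℕ} [Fact p.Prime]

/-- **Pumping.**  In a long power without cut of the next stage there is a long power without cut of
the stage, or one more period may be inserted at a cut. -/
theorem stretch {w h : List α → ZMod p} (hw : Stg w) (hh : Unt w h) (ρ : ZMod p) (v : List α)
    (N0 : ℕ) : ∃ n1, ∀ n, n1 ≤ n → ∀ X, Unc (rc h ρ) (pw v n) X →
      (∃ k, k + N0 ≤ n ∧ Unc w (pw v N0) (pw v k ++ X)) ∨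
      (∃ k v1 v2, v = v2 ++ v1 ∧ k + N0 + 1 ≤ n ∧ w (v1 ++ (pw v k ++ X)) ≠ 0 ∧
        w ((v1 ++ v2) ++ (v1 ++ (pw v k ++ X))) ≠ 0 ∧
        N h ((v1 ++ v2) ++ (v1 ++ (pw v k ++ X))) = N h (v1 ++ (pw v k ++ X)) ∧ v ≠ []) := by
  have : NeZero p := ⟨(Fact.out : p.Prime).ne_zero⟩
  set M := N0 + 1 with hM
  set D := M * (v.length + 2) with hD
  refine ⟨p * D + D + 1 + N0, ?_⟩
  intro n hn X hX
  by_cases hcase : ∃ k, k + N0 ≤ n ∧ Unc w (pw v N0) (pw v k ++ X)
  · exact Or.inl hcase
  right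
  have hp1 : 1 ≤ p := (Fact.out : p.Prime).one_lt.le
  have hpD : D ≤ p * D := Nat.le_mul_of_pos_left D hp1
  have hN0D : M ≤ D := Nat.le_mul_of_pos_right M (by omega)
  have hDn : D ≤ n := by omega
  have hvne : v ≠ [] := by
    intro hv0
    apply hcase
    refine ⟨0, by omega, ?_⟩
    intro B e hB
    exfalso
    have h6 := e.length_le
    rw [pw_length, hv0] at h6
    simp only [List.length_nil, mul_zero] at h6
    exact hB (List.length_eq_zero_iff.1 (by omega))
  -- a cut in each chunk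
  have hcut : ∀ j : Fin (v.length + 2), ∃ b v1 v2, v = v1 ++ v2 ∧ M * j.1 ≤ b ∧
      b < M * (j.1 + 1) ∧ w (v2 ++ pw v b ++ X) ≠ 0 := by
    intro j
    have h1 : M * (j.1 + 1) ≤ D := Nat.mul_le_mul_left M (by omega)
    have h2 : ¬ Unc w (pw v M) (pw v (M * j.1) ++ X) := fun hU =>
      hcase ⟨M * j.1, by
        have : M * (j.1 + 1) = M + M * j.1 := by ring
        omega, unc_pw hU (by omega)⟩
    obtain ⟨A, B, e, hB, hc⟩ := not_Unc h2
    obtain ⟨i, i', v1, v2, hv, -, hB', hii⟩ := pw_split v N0 A B e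
    refine ⟨i' + M * j.1, v1, v2, hv, by omega, ?_, ?_⟩
    · have : M * (j.1 + 1) = M * j.1 + M := by ring
      omega
    · rw [pw_add]
      rw [hB'] at hc
      simpa [List.append_assoc] using hc
  choose b v1 v2 hv hb1 hb2 hcut using hcut
  have hlen : ∀ j, (v1 j).length < v.length + 1 := by
    intro j
    have := congrArg List.length (hv j)
    rw [List.length_append] at this
    omega
  obtain ⟨j, j', hne, hjj⟩ := Fintype.exists_ne_map_eq_of_card_lt
    (f := fun j : Fin (v.length + 2) => (⟨(v1 j).length, hlen j⟩ : Fin (v.length + 1)))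
    (by simp)
  have hlen2 : (v1 j).length = (v1 j').length := by simpa using hjj
  -- ordered version
  have core : ∀ j j' : Fin (v.length + 2), j.1 < j'.1 → (v1 j).length = (v1 j').length →
      ∃ k v1 v2, v = v2 ++ v1 ∧ k + N0 + 1 ≤ n ∧ w (v1 ++ (pw v k ++ X)) ≠ 0 ∧
        w ((v1 ++ v2) ++ (v1 ++ (pw v k ++ X))) ≠ 0 ∧
        N h ((v1 ++ v2) ++ (v1 ++ (pw v k ++ X))) = N h (v1 ++ (pw v k ++ X)) ∧ v ≠ [] := by
    intro j j' hlt hl
    obtain ⟨e1, e2⟩ := List.append_inj ((hv j).symm.trans (hv j')) hl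
    have h3 : M * (j.1 + 1) ≤ M * j'.1 := Nat.mul_le_mul_left M hlt
    have h4 : M * (j'.1 + 1) ≤ D := Nat.mul_le_mul_left M (by omega)
    have hb2j := hb2 j
    have hb1j' := hb1 j'
    have hb2j' := hb2 j'
    obtain ⟨d, hd⟩ : ∃ d, b j' = (d + 1) + b j := ⟨b j' - b j - 1, by omega⟩
    have hc := hcut j
    have hc' := hcut j'
    have hvj := hv j
    rw [← e2, hd, pw_add] at hc'
    generalize v1 j = y at *
    generalize v2 j = z at *
    generalize b j = b0 at *
    set u := z ++ y with hu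
    set c := z ++ pw v b0 ++ X with hcdef
    have hconj : ∀ m, z ++ pw v m = pw u m ++ z := by
      intro m
      rw [hvj, hu, pw_conj]
    have hc'' : w (pw u (d + 1) ++ c) ≠ 0 := by
      rw [hcdef, ← List.append_assoc, ← List.append_assoc, ← hconj]
      simpa [List.append_assoc] using hc'
    have hune : u ≠ [] := by
      intro h0
      apply hvne
      rw [hu] at h0
      rw [hvj, (List.append_eq_nil_iff.1 h0).1, (List.append_eq_nil_iff.1 h0).2]
      rfl
    -- minimal return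
    classical
    have hex : ∃ j, 1 ≤ j ∧ w (pw u j ++ c) ≠ 0 := ⟨d + 1, by omega, hc''⟩
    set j0 := Nat.find hex with hj0
    obtain ⟨hj1, hjc⟩ := Nat.find_spec hex
    have hmin : ∀ i, 1 ≤ i → i < j0 → w (pw u i ++ c) = 0 := by
      intro i hi hlt
      by_contra hne
      exact Nat.find_min hex hlt ⟨hi, hne⟩
    have hjd : j0 ≤ d + 1 := Nat.find_min' hex ⟨by omega, hc''⟩
    rw [← hj0] at hj1 hjc
    have hU : pw u j0 ≠ [] := by
      intro h0
      have := congrArg List.length h0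
      rw [pw_length, List.length_nil] at this
      rcases Nat.mul_eq_zero.1 this with h1 | h1
      · omega
      · exact hune (List.length_eq_zero_iff.1 h1)
    -- the sum along the return vanishes
    have hS : NS h (pw u j0) c = 0 := by
      by_contra hS
      obtain ⟨r, ⟨A, e⟩, hr, hhr⟩ := NS_ne hS
      set S := NS h (pw u j0) c with hSdef
      set i := ((ρ - NS h r c - N h c) / S).val with hi
      have hip : i < p := ZMod.val_lt _
      have h5 : N h (r ++ (pw (pw u j0) i ++ c)) = ρ := by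
        rw [N_append, Rt.ns_eq hh.rt (Rt.pwc hw.rt hU hc hjc i) hc r,
          Rt.N_pw hw.rt hh.rt hU hc hjc i,
          hi, ZMod.natCast_zmod_val, ← hSdef, div_mul_cancel₀ _ hS]
        ring
      have h6 : h (r ++ (pw (pw u j0) i ++ c)) ≠ 0 := by
        rw [hh.rt _ c r (Rt.pwc hw.rt hU hc hjc i) hc hr]
        exact hhr
      have h7 : rc h ρ (r ++ (pw (pw u j0) i ++ c)) ≠ 0 := by
        rw [rc, if_pos h5]
        exact h6
      apply h7
      have h8 : j0 * (i + 1) + b0 + 1 ≤ n := by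
        have h9 : j0 ≤ D := by omega
        have h10 : j0 * (i + 1) ≤ D * p := Nat.mul_le_mul h9 (by omega)
        have h11 : b0 + 1 ≤ D := by omega
        have h17 : D * p = p * D := Nat.mul_comm _ _
        omega
      -- position
      have h12 : pw v (j0 * (i + 1) + b0 + 1) ++ X =
          y ++ (A ++ (r ++ (pw (pw u j0) i ++ c))) := by
        have e3 : pw u (j0 * (i + 1)) = A ++ r ++ pw (pw u j0) i := by
          rw [pw_mul, pw_succ, e]
        have e4 : j0 * (i + 1) + b0 + 1 = 1 + (j0 * (i + 1) + b0) := by omega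
        rw [e4, pw_add, pw_one]
        nth_rw 1 [hvj]
        rw [pw_add]
        calc y ++ z ++ (pw v (j0 * (i + 1)) ++ pw v b0) ++ X
            = y ++ (z ++ pw v (j0 * (i + 1))) ++ (pw v b0 ++ X) := by simp
          _ = _ := by rw [hconj, e3, hcdef]; simp
      have h13 : pw v n = pw v (n - (j0 * (i + 1) + b0 + 1)) ++ pw v (j0 * (i + 1) + b0 + 1) := by
        rw [← pw_add]
        congr 1
        omega
      have h14 : ∃ B, pw v (j0 * (i + 1) + b0 + 1) = y ++ (A ++ B) ∧
          B ++ X = r ++ (pw (pw u j0) i ++ c) ∧ B ≠ [] := by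
        refine ⟨r ++ (pw (pw u j0) i ++ (z ++ pw v b0)), ?_, by simp [hcdef], by simp [hr]⟩
        have h15 := h12
        rw [hcdef] at h15
        have h16 : pw v (j0 * (i + 1) + b0 + 1) ++ X =
            (y ++ (A ++ (r ++ (pw (pw u j0) i ++ (z ++ pw v b0))))) ++ X := by
          rw [h15]; simp
        exact List.append_cancel_right h16
      obtain ⟨B, hB1, hB2, hB3⟩ := h14
      rw [← hB2]
      refine hX B ⟨pw v (n - (j0 * (i + 1) + b0 + 1)) ++ (y ++ A), ?_⟩ hB3
      rw [h13, hB1]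
      simp
    have hj01 : j0 = 1 := by
      by_contra hne
      have h2 : 2 ≤ j0 := by omega
      have := hh.ch c u j0 hc h2 hjc hmin
      rw [N_append, hS, zero_add] at this
      exact this rfl
    rw [hj01, pw_one] at hjc hS
    have hb0 : b0 + 1 ≤ D := by omega
    have hcdef' : c = z ++ (pw v b0 ++ X) := by rw [hcdef, List.append_assoc]
    refine ⟨b0, z, y, hvj, by omega, ?_, ?_, ?_, hvne⟩
    · rw [← hcdef']; exact hc
    · rw [← hcdef']; exact hjc
    · rw [← hcdef', N_append, hS, zero_add]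
  rcases lt_trichotomy j.1 j'.1 with hlt | heq | hlt
  · exact core j j' hlt hlen2
  · exact absurd (Fin.ext heq) hne
  · exact core j' j hlt hlen2.symm

/-- Pumping, decomposed. -/
theorem pump {w h : List α → ZMod p} (hw : Stg w) (hh : Unt w h) (ρ : ZMod p) (v : List α)
    (N0 : ℕ) : ∃ n1, ∀ n, n1 ≤ n → ∀ X, Unc (rc h ρ) (pw v n) X →
      (∃ a b, n = a + N0 + b ∧ Unc w (pw v N0) (pw v b ++ X)) ∨
      (∃ v1 u c m, pw v n ++ X = v1 ++ (pw u m ++ c) ∧
        pw v (n + 1) ++ X = v1 ++ (pw u m ++ (u ++ c)) ∧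
        u ≠ [] ∧ w c ≠ 0 ∧ w (u ++ c) ≠ 0 ∧ N h (u ++ c) = N h c ∧ N0 ≤ m) := by
  obtain ⟨n1, h1⟩ := stretch hw hh ρ v N0
  refine ⟨n1, fun n hn X hX => ?_⟩
  rcases h1 n hn X hX with ⟨k, hk, hU⟩ | ⟨k, z, y, hv, hk, hc, huc, hN, hv0⟩
  · exact Or.inl ⟨n - N0 - k, k, by omega, hU⟩
  · right
    have hsh : ∀ m, pw v (m + (1 + k)) ++ X = y ++ (pw (z ++ y) m ++ (z ++ (pw v k ++ X))) := by
      intro m
      rw [pw_add, pw_add, pw_one]
      calc pw v m ++ (v ++ pw v k) ++ X = pw v m ++ (y ++ z ++ pw v k) ++ X := by rw [← hv]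
        _ = (pw v m ++ y) ++ (z ++ (pw v k ++ X)) := by simp
        _ = _ := by
          have h18 : pw v m ++ y = y ++ pw (z ++ y) m := by rw [hv, pw_conj]
          rw [h18, List.append_assoc]
    refine ⟨y, z ++ y, z ++ (pw v k ++ X), n - k - 1, ?_, ?_, ?_, hc, huc, hN, by omega⟩
    · rw [← hsh]
      congr 2
      omega
    · have e6 : y ++ (pw (z ++ y) (n - k - 1) ++ ((z ++ y) ++ (z ++ (pw v k ++ X)))) =
          y ++ (pw (z ++ y) (n - k - 1 + 1) ++ (z ++ (pw v k ++ X))) := by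
        rw [pw_succ']; simp
      rw [e6, ← hsh]
      congr 2
      omega
    · intro h0
      apply hv0
      rw [hv, (List.append_eq_nil_iff.1 h0).1, (List.append_eq_nil_iff.1 h0).2]
      rfl

/-- the cuts of the next stage are cuts -/
theorem rc_sup {w h : List α → ZMod p} (hh : Unt w h) (ρ : ZMod p) {X : List α}
    (hX : rc h ρ X ≠ 0) : w X ≠ 0 ∧ N h X = ρ ∧ h X ≠ 0 := by
  rw [rc] at hX
  by_cases h1 : N h X = ρ
  · rw [if_pos h1] at hX
    exact ⟨hh.sup X hX, h1, hX⟩
  · rw [if_neg h1] at hX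
    exact absurd rfl hX

/-- the class of the stage is contained in the class of the next stage, powers -/
theorem AP.next {w h : List α → ZMod p} (hw : Stg w) (hh : Unt w h) (ρ : ZMod p) {β : Type}
    {G : List α → β} (hG : AP w G) {k : ℕ} (hM : Mem w k G) : AP (rc h ρ) G := by
  intro v
  obtain ⟨N0, hN0⟩ := hG v
  obtain ⟨n1, hN⟩ := pump hw hh ρ v (max N0 k)
  refine ⟨n1, fun n hn X Y hX => ?_⟩
  rcases hN n hn X hX with ⟨a, b, e, hU⟩ | ⟨v1, u, c, m, e1, e2, hu, hc, huc, -, hk⟩
  · have h1 := hN0 (max N0 k) (le_max_left _ _) (pw v b ++ X) (Y ++ pw v a) hU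
    have e3 : n + 1 = a + (max N0 k + 1) + b := by omega
    have e4 : pw v n = pw v a ++ (pw v (max N0 k) ++ pw v b) := by
      rw [e, pw_add, pw_add, List.append_assoc]
    have e5 : pw v (n + 1) = pw v a ++ (pw v (max N0 k + 1) ++ pw v b) := by
      rw [e3, pw_add, pw_add, List.append_assoc]
    rw [e4, e5]
    simpa only [List.append_assoc] using h1
  · rw [e1, e2]
    have h1 := hM c (u ++ c) (Y ++ (v1 ++ pw u m)) hc huc ?_
    · simpa only [List.append_assoc] using h1
    · rw [nc_append, nc_append]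
      have := Rt.le_nc hw.rt hu hc huc m
      have := le_max_right N0 k
      omega

/-- the walk is insensitive to powers -/
theorem AP.walk {w h : List α → ZMod p} (hw : Stg w) (hh : Unt w h) (ρ : ZMod p) :
    AP (rc h ρ) (N h) := by
  intro v
  obtain ⟨N0, hN0⟩ := hh.ap v
  obtain ⟨n1, hN⟩ := pump hw hh ρ v (N0 + 1)
  refine ⟨n1, fun n hn X Y hX => ?_⟩
  rcases hN n hn X hX with ⟨a, b, e, hU⟩ | ⟨v1, u, c, m, e1, e2, hu, hc, huc, hS, -⟩
  · have e3 : n + 1 = a + (N0 + 1 + 1) + b := by omega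
    set X' := pw v b ++ X with hX'
    have e4 : Y ++ (pw v n ++ X) = (Y ++ pw v a) ++ (pw v (N0 + 1) ++ X') := by
      rw [e, pw_add, pw_add]; simp [hX']
    have e5 : Y ++ (pw v (n + 1) ++ X) = (Y ++ pw v a) ++ ((v ++ pw v (N0 + 1)) ++ X') := by
      rw [e3, pw_add, pw_add, ← pw_succ]; simp [hX']
    rw [e4, e5, N_append, N_append h (Y ++ pw v a), N_append, N_append h (v ++ pw v (N0 + 1)),
      NS_append h v]
    have h1 : NS h (Y ++ pw v a) (pw v (N0 + 1) ++ X') =
        NS h (Y ++ pw v a) ((v ++ pw v (N0 + 1)) ++ X') := by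
      refine NS_congr fun B eB hB => ?_
      have h2 := hN0 (N0 + 1) (by omega) X' B hU
      rw [pw_succ v (N0 + 1)] at h2
      exact h2
    have h3 : NS h v (pw v (N0 + 1) ++ X') = 0 := by
      refine NS_zero fun B eB hB => ?_
      obtain ⟨A, eA⟩ := eB
      have h4 := hN0 N0 le_rfl X' B (unc_pw hU (Nat.le_succ N0))
      have h5 : w (B ++ (pw v N0 ++ X')) = 0 := by
        have := hU (B ++ pw v N0) ⟨A, by rw [pw_succ, ← List.append_assoc, eA]⟩ (by simp [hB])
        simpa only [List.append_assoc] using this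
      have h6 : h (B ++ (pw v N0 ++ X')) = 0 := by
        by_contra h7
        exact hh.sup _ h7 h5
      rw [← h4, h6]
    rw [h1, h3]
    ring
  · rw [e1, e2]
    have e6 : Y ++ (v1 ++ (pw u m ++ c)) = (Y ++ (v1 ++ pw u m)) ++ c := by simp
    have e7 : Y ++ (v1 ++ (pw u m ++ (u ++ c))) = (Y ++ (v1 ++ pw u m)) ++ (u ++ c) := by simp
    rw [e6, e7, N_append, N_append h _ (u ++ c), hS, Rt.ns_eq hh.rt hc huc]

theorem FS.map {β γ : Type} {f : List α → β} (hf : FS f) (g : β → γ) : FS fun X => g (f X) := by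
  have h1 : (Set.range fun X : List α => fun Y : List α => f (Y ++ X)).Finite := hf
  refine (h1.image fun φ Y => g (φ Y)).subset ?_
  rintro _ ⟨X, rfl⟩
  exact ⟨_, ⟨X, rfl⟩, rfl⟩

theorem FS.prod {β γ : Type} {f : List α → β} {g : List α → γ} (hf : FS f) (hg : FS g) :
    FS fun X => (f X, g X) := by
  have h1 : (Set.range fun X : List α => fun Y : List α => f (Y ++ X)).Finite := hf
  have h2 : (Set.range fun X : List α => fun Y : List α => g (Y ++ X)).Finite := hg
  refine ((h1.prod h2).image fun φ Y => (φ.1 Y, φ.2 Y)).subset ?_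
  rintro _ ⟨X, rfl⟩
  exact ⟨(_, _), ⟨⟨X, rfl⟩, ⟨X, rfl⟩⟩, rfl⟩

theorem FS.walk {h : List α → ZMod p} (hh : FS h) : FS (N h) := by
  have : NeZero p := ⟨(Fact.out : p.Prime).ne_zero⟩
  have hfin : (Set.univ : Set (ZMod p)).Finite := Set.finite_univ
  have h1 : (Set.range fun X : List α => fun Y : List α => h (Y ++ X)).Finite := hh
  refine ((h1.prod hfin).image fun φ Y => N φ.1 Y + φ.2).subset ?_
  rintro _ ⟨X, rfl⟩
  refine ⟨(fun Y => h (Y ++ X), N h X), ⟨⟨X, rfl⟩, trivial⟩, ?_⟩
  funext Y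
  show N (fun Y => h (Y ++ X)) Y + N h X = N h (Y ++ X)
  rw [N_append]
  congr 1
  induction Y with
  | nil => rfl
  | cons y Y ih => rw [N, ih, NS]; rfl

theorem Mem.next {w h : List α → ZMod p} (hh : Unt w h) (ρ : ZMod p) {β : Type}
    {G : List α → β} {k : ℕ} (hM : Mem w k G) : Mem (rc h ρ) k G := fun c c' S hc hc' hS =>
  hM c c' S (rc_sup hh ρ hc).1 (rc_sup hh ρ hc').1
    (hS.trans (nc_mono (fun _ hX => (rc_sup hh ρ hX).1) S c))

theorem mem_walk {w h : List α → ZMod p} (hh : Unt w h) (ρ : ZMod p) : Mem (rc h ρ) 0 (N h) := by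
  intro c c' S hc hc' _
  rw [N_append, N_append, (rc_sup hh ρ hc).2.1, (rc_sup hh ρ hc').2.1,
    Rt.ns_eq hh.rt (rc_sup hh ρ hc).1 (rc_sup hh ρ hc').1]

theorem Rt.mem {w : List α → ZMod p} {β : Type} {f : List α → β} (hf : Rt w f) : Mem w 1 f := by
  intro c c' S hc hc' hS
  cases S with
  | nil => exact absurd hS (by simp [nc])
  | cons x S => exact hf c c' _ hc hc' (by simp)

theorem AP.map {w : List α → ZMod p} {β γ : Type} {f : List α → β} (hf : AP w f) (g : β → γ) :
    AP w fun X => g (f X) := by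
  intro v
  obtain ⟨N, hN⟩ := hf v
  exact ⟨N, fun n hn X Y hX => congrArg g (hN n hn X Y hX)⟩

theorem AP.prod {w : List α → ZMod p} {β γ : Type} {f : List α → β} {g : List α → γ}
    (hf : AP w f) (hg : AP w g) : AP w fun X => (f X, g X) := by
  intro v
  obtain ⟨N, hN⟩ := hf v
  obtain ⟨N', hN'⟩ := hg v
  exact ⟨max N N', fun n hn X Y hX => Prod.ext (hN n (le_trans (le_max_left _ _) hn) X Y hX)
    (hN' n (le_trans (le_max_right _ _) hn) X Y hX)⟩

theorem rt_rc {w h : List α → ZMod p} (hh : Unt w h) (ρ : ZMod p) : Rt (rc h ρ) (rc h ρ) := by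
  intro c c' r hc hc' hr
  have h1 := rc_sup hh ρ hc
  have h2 := rc_sup hh ρ hc'
  unfold rc
  rw [N_append, N_append, h1.2.1, h2.2.1, Rt.ns_eq hh.rt h1.1 h2.1, hh.rt c c' r h1.1 h2.1 hr]

/-- structure of the return times of a power to the next stage -/
theorem next_cyc {w h : List α → ZMod p} (hw : Stg w) (hh : Unt w h) (ρ : ZMod p)
    {c v : List α} {j : ℕ} (hc : rc h ρ c ≠ 0) (hj : 2 ≤ j)
    (hjc : rc h ρ (pw v j ++ c) ≠ 0)
    (hmin : ∀ i, 1 ≤ i → i < j → rc h ρ (pw v i ++ c) = 0) :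
    ∃ j0, 1 ≤ j0 ∧ j = j0 * p ∧ w (pw v j0 ++ c) ≠ 0 ∧ pw v j0 ≠ [] ∧ NS h (pw v j0) c ≠ 0 := by
  classical
  have hc1 := rc_sup hh ρ hc
  have hj1 := rc_sup hh ρ hjc
  have hv : v ≠ [] := by
    intro hv
    subst hv
    have h1 : pw ([] : List α) 1 = [] := by simp
    have h2 := hmin 1 le_rfl (by omega)
    rw [h1] at h2
    exact hc h2
  have hex : ∃ i, 1 ≤ i ∧ w (pw v i ++ c) ≠ 0 := ⟨j, by omega, hj1.1⟩
  set j0 := Nat.find hex with hj0
  obtain ⟨hj01, hj0c⟩ := Nat.find_spec hex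
  rw [← hj0] at hj01 hj0c
  have hmin0 : ∀ i, 1 ≤ i → i < j0 → w (pw v i ++ c) = 0 := by
    intro i hi hlt
    by_contra hne
    exact Nat.find_min hex hlt ⟨hi, hne⟩
  have hU : pw v j0 ≠ [] := by
    intro h0
    have := congrArg List.length h0
    rw [pw_length, List.length_nil] at this
    rcases Nat.mul_eq_zero.1 this with h1 | h1
    · omega
    · exact hv (List.length_eq_zero_iff.1 h1)
  -- `j` is a multiple of `j0`
  have hdvd : ∃ t, j = j0 * t := by
    refine ⟨j / j0, ?_⟩
    have h1 := Nat.div_add_mod j j0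
    by_contra hne
    have h2 : 1 ≤ j % j0 := by
      by_contra h3
      omega
    have h3 : j % j0 < j0 := Nat.mod_lt _ (by omega)
    have h4 : pw v j ++ c = pw v (j % j0) ++ (pw (pw v j0) (j / j0) ++ c) := by
      rw [← pw_mul, ← List.append_assoc, ← pw_add]
      congr 2
      omega
    have h5 : pw v (j % j0) ≠ [] := by
      intro h0
      have := congrArg List.length h0
      rw [pw_length, List.length_nil] at this
      rcases Nat.mul_eq_zero.1 this with h1 | h1
      · omega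
      · exact hv (List.length_eq_zero_iff.1 h1)
    have h6 := hj1.1
    rw [h4, hw.rt _ c _ (Rt.pwc hw.rt hU hc1.1 hj0c _) hc1.1 h5] at h6
    exact h6 (hmin0 _ h2 h3)
  obtain ⟨t, ht⟩ := hdvd
  have ht1 : 1 ≤ t := by
    rcases Nat.eq_zero_or_pos t with h0 | h0
    · rw [h0, Nat.mul_zero] at ht; omega
    · exact h0
  have hval : ∀ n, N h (pw v (j0 * n) ++ c) = (n : ZMod p) * NS h (pw v j0) c + ρ := by
    intro n
    rw [pw_mul, Rt.N_pw hw.rt hh.rt hU hc1.1 hj0c, hc1.2.1]
  have hlast : ∀ n, 1 ≤ n → h (pw v (j0 * n) ++ c) = h (pw v j0 ++ c) := by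
    intro n hn
    obtain ⟨n, rfl⟩ : ∃ n', n = n' + 1 := ⟨n - 1, by omega⟩
    rw [pw_mul, pw_succ, List.append_assoc,
      hh.rt _ c _ (Rt.pwc hw.rt hU hc1.1 hj0c n) hc1.1 hU]
  have hhj0 : h (pw v j0 ++ c) ≠ 0 := by
    rw [← hlast t ht1, ← ht]
    exact hj1.2.2
  have hS : NS h (pw v j0) c ≠ 0 := by
    intro hS
    have h1 : j0 = 1 := by
      by_contra hne
      have h2 := hh.ch c v j0 hc1.1 (by omega) hj0c hmin0
      rw [N_append, hS, zero_add] at h2
      exact h2 rfl
    have h2 := hmin 1 le_rfl (by omega)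
    rw [h1] at hhj0 hS
    rw [rc, N_append, hS, zero_add, hc1.2.1, if_pos rfl] at h2
    exact hhj0 h2
  refine ⟨j0, hj01, ?_, hj0c, hU, hS⟩
  -- `t = p`
  have hpt : p ∣ t := by
    have h1 := hval t
    rw [← ht, hj1.2.1] at h1
    have h2 : (t : ZMod p) * NS h (pw v j0) c = 0 := by
      have := h1.symm
      rwa [add_eq_right] at this
    rcases mul_eq_zero.1 h2 with h3 | h3
    · exact (ZMod.natCast_eq_zero_iff _ _).1 h3
    · exact absurd h3 hS
  have htp : t ≤ p := by
    by_contra hlt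
    push Not at hlt
    have hp1 : 1 ≤ p := (Fact.out : p.Prime).one_lt.le
    have h1 := hmin (j0 * p) (Nat.mul_pos hj01 hp1)
      (by rw [ht]; exact Nat.mul_lt_mul_of_pos_left hlt hj01)
    rw [rc, hval, ZMod.natCast_self, zero_mul, zero_add, if_pos rfl, hlast p hp1] at h1
    exact hhj0 h1
  rw [ht, Nat.le_antisymm htp (Nat.le_of_dvd (by omega) hpt)]

theorem sum_hits {a S ρ x : ZMod p} (hS : S ≠ 0) :
    ∑ i ∈ Finset.range p, (if (i : ZMod p) * S + a = ρ then x else 0) = x := by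
  have : NeZero p := ⟨(Fact.out : p.Prime).ne_zero⟩
  rw [← Finset.sum_filter]
  have h1 : (Finset.range p).filter (fun i : ℕ => (i : ZMod p) * S + a = ρ) =
      {((ρ - a) / S).val} := by
    ext i
    rw [Finset.mem_filter, Finset.mem_range, Finset.mem_singleton]
    constructor
    · rintro ⟨h1, h2⟩
      have h3 : (i : ZMod p) = (ρ - a) / S := by
        rw [eq_div_iff hS, ← h2]
        ring
      rw [← h3, ZMod.val_natCast_of_lt h1]
    · rintro rfl
      refine ⟨ZMod.val_lt _, ?_⟩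
      rw [ZMod.natCast_zmod_val, div_mul_cancel₀ _ hS]
      ring
  rw [h1, Finset.sum_singleton]

theorem NS_pw {f : List α → ZMod p} (U c : List α) (n : ℕ) :
    NS f (pw U n) c = ∑ i ∈ Finset.range n, NS f U (pw U i ++ c) := by
  induction n with
  | zero => rfl
  | succ n ih => rw [pw_succ, NS_append, ih, Finset.sum_range_succ]; ring

/-- Sum over the return: each cut is once an arrival. -/
theorem next_sum {w h : List α → ZMod p} (hw : Stg w) (hh : Unt w h) (ρ : ZMod p)
    {c U : List α} (hU : U ≠ []) (hc : w c ≠ 0) (hUc : w (U ++ c) ≠ 0) (hS : NS h U c ≠ 0) :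
    NS (rc h ρ) (pw U p) c = NS h U c := by
  rw [NS_pw]
  have key : ∀ V : List α, ∑ i ∈ Finset.range p, NS (rc h ρ) V (pw U i ++ c) = NS h V c := by
    intro V
    induction V with
    | nil => simp [NS]
    | cons x V ih =>
      simp only [NS]
      rw [Finset.sum_add_distrib, ih]
      congr 1
      have h1 : ∀ i, rc h ρ (x :: (V ++ (pw U i ++ c))) =
          if (i : ZMod p) * NS h U c + (NS h (x :: V) c + N h c) = ρ
          then h (x :: (V ++ c)) else 0 := by
        intro i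
        have h2 : x :: (V ++ (pw U i ++ c)) = (x :: V) ++ (pw U i ++ c) := rfl
        rw [rc, h2, N_append, Rt.N_pw hw.rt hh.rt hU hc hUc,
          Rt.ns_eq hh.rt (Rt.pwc hw.rt hU hc hUc i) hc,
          hh.rt _ c _ (Rt.pwc hw.rt hU hc hUc i) hc (by simp)]
        have h3 : NS h (x :: V) c + ((i : ZMod p) * NS h U c + N h c) =
            (i : ZMod p) * NS h U c + (NS h (x :: V) c + N h c) := by ring
        rw [h3]
        rfl
      rw [Finset.sum_congr rfl fun i _ => h1 i]
      exact sum_hits hS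
  exact key U

end pump

/-! ### the rows -/

theorem rowB0 : RowB0 := by
  intro α p _ w h hw hh ρ v n0
  obtain ⟨n1, h1⟩ := stretch hw hh ρ v n0
  refine ⟨n1, fun n hn X hX => ?_⟩
  rcases h1 n hn X hX with h2 | ⟨k, v1, v2, a1, a2, a3, a4, a5, -⟩
  · exact Or.inl h2
  · exact Or.inr ⟨k, v1, v2, a1, a2, a3, a4, a5⟩

theorem rowB1 : RowB1 := by
  intro α p _ w h hw hh ρ
  refine ⟨?_, ?_, ?_, rt_rc hh ρ, ?_⟩
  · by_contra h1
    exact (rc_sup hh ρ h1).1 hw.nil
  · exact FS.map (FS.prod (FS.walk hh.fs) hh.fs) fun q => if q.1 = ρ then q.2 else 0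
  · exact AP.map (AP.prod (AP.walk hw hh ρ) (AP.next hw hh ρ hh.ap (Rt.mem hh.rt)))
      fun q => if q.1 = ρ then q.2 else 0
  · intro c v j hc hj hjc hmin
    obtain ⟨j0, h1, h2, h3, h4, h5⟩ := next_cyc hw hh ρ hc hj hjc hmin
    rw [N_append, h2, pw_mul, next_sum hw hh ρ h4 (rc_sup hh ρ hc).1 h3 h5]
    intro h6
    exact h5 (by rwa [add_eq_right] at h6)

theorem rowB2 : RowB2 := by
  intro α A p _ w h hw hh ρ G hG
  obtain ⟨h1, h2, k, h3⟩ := hG
  exact ⟨h1, AP.next hw hh ρ h2 h3, k, Mem.next hh ρ h3⟩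

theorem rowB3 : RowB3 := by
  intro α p _ w h hw hh ρ
  exact ⟨FS.walk hh.fs, AP.walk hw hh ρ, 0, mem_walk hh ρ⟩

end Vale.Agent.P329.H560
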