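import Vale.Agent.P329.H560.RowB

/-!
# The splitting functions are local over the return stage (row D3)
-/

set_option autoImplicit false
set_option linter.unusedSectionVars false

namespace Vale.Agent.P329.H560

open H259 (pw pw_zero pw_succ pw_one pw_add pw_succ' pw_mul pw_length)
open H962

section

variable {α : Type} {p : ℕ}

/-- values of a scan -/
def scan {β γ : Type} (step : β → γ → γ) (φ : List α → β) (c : γ) : List α → γ
  | [] => c
  | a :: Y => step (φ (a :: Y)) (scan step φ c Y)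

/-- scans of functions with finitely many residuals -/
theorem FS.scan {β γ : Type} [Finite γ] {g : List α → β} {f : List α → γ} (step : β → γ → γ)
    (hf : ∀ a X, f (a :: X) = step (g (a :: X)) (f X)) (hg : FS g) : FS f := by
  have h1 : (Set.range fun X : List α => fun Y : List α => g (Y ++ X)).Finite := hg
  have h2 : (Set.univ : Set γ).Finite := Set.finite_univ
  refine ((h1.prod h2).image fun φ Y => H560.scan step φ.1 φ.2 Y).subset ?_
  rintro _ ⟨X, rfl⟩
  refine ⟨(fun Y => g (Y ++ X), f X), ⟨⟨X, rfl⟩, trivial⟩, ?_⟩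
  funext Y
  show H560.scan step (fun Y => g (Y ++ X)) (f X) Y = f (Y ++ X)
  induction Y with
  | nil => rfl
  | cons y Y ih => rw [H560.scan, ih, List.cons_append, hf]

/-- equality of scans above equal states -/
theorem scan_congr {β γ : Type} {g : List α → β} {f : List α → γ} (step : β → γ → γ)
    (hf : ∀ a X, f (a :: X) = step (g (a :: X)) (f X)) {Y X X' : List α}
    (h : ∀ B, B <:+ Y → B ≠ [] → g (B ++ X) = g (B ++ X')) (h0 : f X = f X') :
    f (Y ++ X) = f (Y ++ X') := by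
  induction Y with
  | nil => exact h0
  | cons y Y ih =>
    rw [List.cons_append, List.cons_append, hf, hf,
      ih fun B e hB => h B (e.trans (List.suffix_cons y Y)) hB]
    have := h (y :: Y) List.suffix_rfl (by simp)
    rw [List.cons_append, List.cons_append] at this
    rw [this]

theorem AP.tail {w : List α → ZMod p} {β : Type} {G : List α → β} (hG : AP w G) :
    AP w fun X => G X.tail := by
  intro v
  obtain ⟨n0, h0⟩ := hG v
  refine ⟨n0 + 1, fun n hn X Y hX => ?_⟩
  obtain ⟨m, rfl⟩ : ∃ m, n = m + 1 := ⟨n - 1, by omega⟩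
  cases Y with
  | cons y Y =>
    exact h0 (m + 1) (by omega) X Y hX
  | nil =>
    cases v with
    | nil =>
      have h1 : ∀ k, pw ([] : List α) k = [] := fun k => by
        apply List.length_eq_zero_iff.1
        rw [pw_length]
        simp
      rw [h1, h1]
    | cons x v =>
      have h1 := h0 m (by omega) X v (unc_pw hX (by omega))
      rw [pw_succ, pw_succ (x :: v) (m + 1)]
      show G (v ++ pw (x :: v) m ++ X) = G (v ++ pw (x :: v) (m + 1) ++ X)
      rw [List.append_assoc, List.append_assoc]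
      exact h1

end

section

variable {α : Type} {p : ℕ} [Fact p.Prime]

/-- Pumping, decomposed, with the position of the cut. -/
theorem pump2 {w h : List α → ZMod p} (hw : Stg w) (hh : Unt w h) (ρ : ZMod p) (v : List α)
    (N0 : ℕ) : ∃ n1, ∀ n, n1 ≤ n → ∀ X, Unc (rc h ρ) (pw v n) X →
      (∃ a b, n = a + N0 + b ∧ Unc w (pw v N0) (pw v b ++ X)) ∨
      (∃ v1 u c m, pw v n ++ X = v1 ++ (pw u m ++ c) ∧
        pw v (n + 1) ++ X = v1 ++ (pw u m ++ (u ++ c)) ∧
        u ≠ [] ∧ w c ≠ 0 ∧ w (u ++ c) ≠ 0 ∧ N h (u ++ c) = N h c ∧ N0 ≤ m ∧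
        Unc (rc h ρ) (pw u m) c) := by
  obtain ⟨n1, h1⟩ := stretch hw hh ρ v N0
  refine ⟨n1, fun n hn X hX => ?_⟩
  rcases h1 n hn X hX with ⟨k, hk, hU⟩ | ⟨k, z, y, hv, hk, hc, huc, hN, hv0⟩
  · exact Or.inl ⟨n - N0 - k, k, by omega, hU⟩
  · right
    have hsh : ∀ m, pw v (m + (1 + k)) = y ++ (pw (z ++ y) m ++ (z ++ pw v k)) := by
      intro m
      rw [pw_add, pw_add, pw_one]
      calc pw v m ++ (v ++ pw v k) = pw v m ++ (y ++ z ++ pw v k) := by rw [← hv]
        _ = (pw v m ++ y) ++ (z ++ pw v k) := by simp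
        _ = _ := by
          have h18 : pw v m ++ y = y ++ pw (z ++ y) m := by rw [hv, pw_conj]
          rw [h18, List.append_assoc]
    have e1 : pw v n = y ++ (pw (z ++ y) (n - k - 1) ++ (z ++ pw v k)) := by
      rw [← hsh]
      congr 1
      omega
    have e2 : pw v (n + 1) = y ++ (pw (z ++ y) (n - k - 1 + 1) ++ (z ++ pw v k)) := by
      rw [← hsh]
      congr 1
      omega
    have hune : z ++ y ≠ [] := by
      intro h0
      apply hv0
      rw [hv, (List.append_eq_nil_iff.1 h0).1, (List.append_eq_nil_iff.1 h0).2]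
      rfl
    refine ⟨y, z ++ y, z ++ (pw v k ++ X), n - k - 1, ?_, ?_, hune, hc, huc, hN, by omega, ?_⟩
    · rw [e1]; simp
    · rw [e2, pw_succ']; simp
    · intro B hB hB0
      obtain ⟨A, hA⟩ := hB
      have h2 := hX (B ++ (z ++ pw v k)) ⟨y ++ A, by rw [e1, ← hA]; simp⟩ (by simp [hB0])
      simpa only [List.append_assoc] using h2

theorem N_cons (f : List α → ZMod p) (a : α) (X : List α) : N f (a :: X) = N f X + f (a :: X) := rfl

/-- the step of `Bf` -/
def bst (ρ : ZMod p) (g : ZMod p × ZMod p × ZMod p) (b : ZMod p) : ZMod p :=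
  if g.1 = 0 then b else if g.2.1 = ρ then 0 else if g.2.1 - g.1 = ρ then g.2.2 else b

theorem Bf_cons (w u : List α → ZMod p) (ρ : ZMod p) (a : α) (X : List α) :
    Bf w u ρ (a :: X) = bst ρ (w (a :: X), N w (a :: X), u (a :: X)) (Bf w u ρ X) := by
  rw [Bf, bst]
  have h1 : N w (a :: X) - w (a :: X) = N w X := by rw [N_cons]; ring
  simp only [h1]

theorem Bf_rho {w u : List α → ZMod p} {ρ : ZMod p} : ∀ {X : List α}, N w X = ρ →
    Bf w u ρ X = 0 := by
  intro X
  induction X with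
  | nil => intro _; rfl
  | cons a X ih =>
    intro h
    rw [Bf]
    by_cases h1 : w (a :: X) = 0
    · rw [if_pos h1]
      apply ih
      rw [N_cons, h1, add_zero] at h
      exact h
    · rw [if_neg h1, if_pos h]

/-- `Bf` is constant on a stretch at a cut without arrival -/
theorem Bf_const {w u : List α → ZMod p} {ρ : ZMod p} {c : List α} (hc : N w c ≠ ρ) :
    ∀ {V : List α}, Unc (rc w ρ) V c → N w (V ++ c) ≠ ρ ∧ Bf w u ρ (V ++ c) = Bf w u ρ c := by
  intro V
  induction V with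
  | nil => intro _; exact ⟨hc, rfl⟩
  | cons a V ih =>
    intro hU
    obtain ⟨h1, h2⟩ := ih (Unc.mono hU (List.suffix_cons a V))
    rw [List.cons_append]
    by_cases h3 : w (a :: (V ++ c)) = 0
    · rw [N_cons, h3, add_zero, Bf, if_pos h3]
      exact ⟨h1, h2⟩
    · have h4 : N w (a :: (V ++ c)) ≠ ρ := by
        intro h5
        have h6 := hU (a :: V) List.suffix_rfl (by simp)
        rw [List.cons_append, rc, if_pos h5] at h6
        exact h3 h6
      refine ⟨h4, ?_⟩
      rw [Bf, if_neg h3, if_neg h4, if_neg h1]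
      exact h2

/-- `Bf` is constant on an uncut stretch -/
theorem Bf_unc {w u : List α → ZMod p} {ρ : ZMod p} {c : List α} :
    ∀ {V : List α}, Unc w V c → N w (V ++ c) = N w c ∧ Bf w u ρ (V ++ c) = Bf w u ρ c := by
  intro V
  induction V with
  | nil => intro _; exact ⟨rfl, rfl⟩
  | cons a V ih =>
    intro hU
    obtain ⟨h1, h2⟩ := ih (Unc.mono hU (List.suffix_cons a V))
    have h3 := hU (a :: V) List.suffix_rfl (by simp)
    rw [List.cons_append] at h3 ⊢
    rw [N_cons, h3, add_zero, Bf, if_pos h3]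
    exact ⟨h1, h2⟩

theorem Bf_congr {w u : List α → ZMod p} {ρ : ZMod p} {Y X X' : List α}
    (hw : ∀ B, B <:+ Y → B ≠ [] → w (B ++ X) = w (B ++ X'))
    (hu : ∀ B, B <:+ Y → B ≠ [] → u (B ++ X) = u (B ++ X'))
    (hN : N w X = N w X') (hB : Bf w u ρ X = Bf w u ρ X') :
    Bf w u ρ (Y ++ X) = Bf w u ρ (Y ++ X') := by
  refine scan_congr (g := fun X => (w X, N w X, u X)) (bst ρ) (fun a X => Bf_cons w u ρ a X)
    (fun B e hB => ?_) hB
  show (w (B ++ X), N w (B ++ X), u (B ++ X)) = (w (B ++ X'), N w (B ++ X'), u (B ++ X'))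
  rw [hw B e hB, hu B e hB, N_append, N_append, hN,
    NS_congr fun B' e' hB' => hw B' (e'.trans e) hB']

theorem Bf_ap {w u : List α → ZMod p} (hw : Stg w) (hu : AP w u) (hr : Rt w u) (ρ : ZMod p) :
    AP (rc w ρ) (Bf w u ρ) := by
  intro v
  have hun : Unt w w := ⟨fun _ h => h, hw.fs, hw.ap, hw.rt, hw.ch⟩
  obtain ⟨n1, h1⟩ := hw.ap v
  obtain ⟨n2, h2⟩ := hu v
  set N0 := max n1 n2 with hN0
  have hn1 : n1 ≤ N0 := le_max_left _ _
  have hn2 : n2 ≤ N0 := le_max_right _ _
  obtain ⟨n3, h3⟩ := pump2 hw hun ρ v (N0 + 1)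
  refine ⟨n3, fun n hn X Y hX => ?_⟩
  rcases h3 n hn X hX with ⟨a, b, e, hU⟩ | ⟨v1, q, c, m, e1, e2, hq, hc, hqc, hS, hm, hUq⟩
  · have e3 : n + 1 = a + (N0 + 1 + 1) + b := by omega
    set X' := pw v b ++ X with hX'
    have e4 : Y ++ (pw v n ++ X) = (Y ++ pw v a) ++ (pw v (N0 + 1) ++ X') := by
      rw [e, pw_add, pw_add]; simp [hX']
    have e5 : Y ++ (pw v (n + 1) ++ X) = (Y ++ pw v a) ++ (pw v (N0 + 1 + 1) ++ X') := by
      rw [e3, pw_add, pw_add]; simp [hX']
    -- the longer stretch is uncut, too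
    have hU2 : Unc w (pw v (N0 + 1 + 1)) X' := by
      rw [pw_succ]
      rintro B ⟨A, hA⟩ hB
      rcases List.append_eq_append_iff.1 hA with ⟨bs, h4, h5⟩ | ⟨as, h4, h5⟩
      · -- `v = A ++ bs`, `B = bs ++ _`
        by_cases hbs : bs = []
        · subst hbs
          rw [List.nil_append] at h5
          rw [h5] at hB ⊢
          exact hU _ List.suffix_rfl hB
        · rw [h5, List.append_assoc, ← h1 N0 hn1 X' bs (unc_pw hU (by omega))]
          have h6 := hU (bs ++ pw v N0) ⟨A, by rw [pw_succ, h4, List.append_assoc, ← h4]⟩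
            (by simp [hbs])
          simpa only [List.append_assoc] using h6
      · exact hU B ⟨as, h5.symm⟩ hB
    have h5 := Bf_unc (u := u) (ρ := ρ) hU
    have h6 := Bf_unc (u := u) (ρ := ρ) hU2
    rw [e4, e5]
    refine Bf_congr (fun B _ _ => h1 (N0 + 1) (by omega) X' B hU)
      (fun B _ _ => h2 (N0 + 1) (by omega) X' B hU) (h5.1.trans h6.1.symm) (h5.2.trans h6.2.symm)
  · rw [e1, e2]
    have hUq1 : Unc (rc w ρ) q c := Unc.mono hUq ⟨pw q (m - 1), by
      rw [← pw_succ']; congr 1; omega⟩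
    have hNc : N w c ≠ ρ := by
      intro h4
      have h5 := hUq1 q List.suffix_rfl hq
      rw [rc, hS, if_pos h4] at h5
      exact hqc h5
    have e3 : Y ++ (v1 ++ (pw q m ++ c)) = (Y ++ (v1 ++ pw q m)) ++ c := by simp
    have e4 : Y ++ (v1 ++ (pw q m ++ (q ++ c))) = (Y ++ (v1 ++ pw q m)) ++ (q ++ c) := by simp
    rw [e3, e4]
    exact Bf_congr (fun B _ hB => hw.rt c (q ++ c) B hc hqc hB)
      (fun B _ hB => hr c (q ++ c) B hc hqc hB) hS.symm (Bf_const hNc hUq1).2.symm

theorem Bf_mem {w u : List α → ZMod p} (hw : Stg w) (hr : Rt w u) (ρ : ZMod p) :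
    Mem (rc w ρ) 0 (Bf w u ρ) := by
  intro c c' S hc hc' _
  have hun : Unt w w := ⟨fun _ h => h, hw.fs, hw.ap, hw.rt, hw.ch⟩
  have h1 := rc_sup hun ρ hc
  have h2 := rc_sup hun ρ hc'
  exact Bf_congr (fun B _ hB => hw.rt c c' B h1.1 h2.1 hB) (fun B _ hB => hr c c' B h1.1 h2.1 hB)
    (h1.2.1.trans h2.2.1.symm) ((Bf_rho h1.2.1).trans (Bf_rho h2.2.1).symm)

theorem Bf_fs {w u : List α → ZMod p} (hw : FS w) (hu : FS u) (ρ : ZMod p) :
    FS fun X => (Bf w u ρ X, Bf w u ρ X.tail) := by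
  have : NeZero p := ⟨(Fact.out : p.Prime).ne_zero⟩
  refine FS.scan (g := fun X => (w X, N w X, u X))
    (fun g q => (bst ρ g q.1, q.1)) (fun a X => ?_) (FS.prod hw (FS.prod (FS.walk hw) hu))
  rw [Bf_cons]
  rfl

theorem phi_eq (w u : List α → ZMod p) (ρ : ZMod p) (X : List α) (h0 : w [] = 0) :
    phi w u ρ X = if rc w ρ X = 0 then 0 else Bf w u ρ X.tail - u X := by
  cases X with
  | nil =>
    have : rc w ρ ([] : List α) = 0 := by rw [rc, h0]; split_ifs <;> rfl
    rw [if_pos this]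
    rfl
  | cons a X => rfl

theorem phi_rt {w u : List α → ZMod p} (hw : Stg w) (hr : Rt w u) (ρ : ZMod p) :
    Rt (rc w ρ) (phi w u ρ) := by
  intro c c' r hc hc' hr0
  have hun : Unt w w := ⟨fun _ h => h, hw.fs, hw.ap, hw.rt, hw.ch⟩
  have h1 := rc_sup hun ρ hc
  have h2 := rc_sup hun ρ hc'
  cases r with
  | nil => exact absurd rfl hr0
  | cons a r =>
    rw [phi_eq _ _ _ _ hw.nil, phi_eq _ _ _ _ hw.nil, rt_rc hun ρ c c' _ hc hc' hr0,
      hr c c' _ h1.1 h2.1 hr0]
    show (if _ then _ else Bf w u ρ (r ++ c) - _) = if _ then _ else Bf w u ρ (r ++ c') - _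
    rw [Bf_mem hw hr ρ c c' r hc hc' (Nat.zero_le _)]

theorem phi_ap {w u : List α → ZMod p} (hw : Stg w) (hu : AP w u) (hr : Rt w u) (ρ : ZMod p) :
    AP (rc w ρ) (phi w u ρ) := by
  have hun : Unt w w := ⟨fun _ h => h, hw.fs, hw.ap, hw.rt, hw.ch⟩
  have h1 := AP.map (AP.prod (rowB1 α p w w hw hun ρ).ap (AP.prod (AP.tail (Bf_ap hw hu hr ρ))
    (AP.next hw hun ρ hu (Rt.mem hr)))) fun q => if q.1 = 0 then 0 else q.2.1 - q.2.2
  have h2 : phi w u ρ = fun X => if rc w ρ X = 0 then 0 else Bf w u ρ X.tail - u X :=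
    funext fun X => phi_eq w u ρ X hw.nil
  rw [h2]
  exact h1

theorem phi_fs {w u : List α → ZMod p} (hw : Stg w) (hu : FS u) (ρ : ZMod p) :
    FS (phi w u ρ) := by
  have hun : Unt w w := ⟨fun _ h => h, hw.fs, hw.ap, hw.rt, hw.ch⟩
  have h1 := FS.map (FS.prod (rowB1 α p w w hw hun ρ).fs (FS.prod (Bf_fs hw.fs hu ρ) hu))
    fun q => if q.1 = 0 then 0 else q.2.1.2 - q.2.2
  have h2 : phi w u ρ = fun X => if rc w ρ X = 0 then 0 else Bf w u ρ X.tail - u X :=
    funext fun X => phi_eq w u ρ X hw.nil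
  rw [h2]
  exact h1

/-- the telescoping identity of `phi` -/
def psi (w u : List α → ZMod p) (ρ : ZMod p) (X : List α) : ZMod p :=
  if w X = 0 then 0 else
    (if N w X = ρ then u X else 0) - (if N w X = ρ + w X then u X else 0)

theorem phi_tel (w u : List α → ZMod p) (ρ : ZMod p) (a : α) (X : List α) :
    phi w u ρ (a :: X) = Bf w u ρ X - Bf w u ρ (a :: X) - psi w u ρ (a :: X) := by
  rw [phi, psi, Bf]
  by_cases h1 : w (a :: X) = 0
  · have h2 : rc w ρ (a :: X) = 0 := by rw [rc, h1]; split_ifs <;> rfl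
    rw [if_pos h2, if_pos h1, if_pos h1]
    ring
  · rw [if_neg h1, if_neg h1]
    have h4 : (N w (a :: X) = ρ + w (a :: X)) ↔ N w X = ρ := by
      rw [N_cons]
      exact add_left_inj _
    by_cases h2 : N w (a :: X) = ρ
    · have h3 : rc w ρ (a :: X) ≠ 0 := by rw [rc, if_pos h2]; exact h1
      have h5 : ¬ (N w (a :: X) = ρ + w (a :: X)) := by
        rw [h2]
        intro h6
        exact h1 (by rwa [left_eq_add] at h6)
      rw [if_neg h3, if_pos h2, if_pos h2, if_neg h5]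
      ring
    · have h3 : rc w ρ (a :: X) = 0 := by rw [rc, if_neg h2]
      rw [if_pos h3, if_neg h2, if_neg h2]
      by_cases h5 : N w X = ρ
      · rw [if_pos (h4.2 h5), if_pos h5, Bf_rho h5]
        ring
      · rw [if_neg fun h6 => h5 (h4.1 h6), if_neg h5]
        ring

theorem phi_NS (w u : List α → ZMod p) (ρ : ZMod p) (S c : List α) :
    NS (phi w u ρ) S c = Bf w u ρ c - Bf w u ρ (S ++ c) - NS (psi w u ρ) S c := by
  induction S with
  | nil => simp [NS]
  | cons a S ih => rw [NS, ih, phi_tel, NS, List.cons_append]; ring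

theorem psi_sum {w u : List α → ZMod p} (hw : Stg w) (hr : Rt w u) (ρ : ZMod p)
    {c U : List α} (hU : U ≠ []) (hc : w c ≠ 0) (hUc : w (U ++ c) ≠ 0) (hS : NS w U c ≠ 0) :
    NS (psi w u ρ) (pw U p) c = 0 := by
  rw [NS_pw]
  have key : ∀ V : List α, ∑ i ∈ Finset.range p, NS (psi w u ρ) V (pw U i ++ c) = 0 := by
    intro V
    induction V with
    | nil => simp [NS]
    | cons x V ih =>
      simp only [NS]
      rw [Finset.sum_add_distrib, ih, zero_add]
      have h1 : ∀ i, psi w u ρ (x :: (V ++ (pw U i ++ c))) =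
          (if (i : ZMod p) * NS w U c + (NS w (x :: V) c + N w c) = ρ
          then (if w (x :: (V ++ c)) = 0 then 0 else u (x :: (V ++ c))) else 0) -
          (if (i : ZMod p) * NS w U c + (NS w (x :: V) c + N w c) = ρ + w (x :: (V ++ c))
          then (if w (x :: (V ++ c)) = 0 then 0 else u (x :: (V ++ c))) else 0) := by
        intro i
        have h2 : x :: (V ++ (pw U i ++ c)) = (x :: V) ++ (pw U i ++ c) := rfl
        rw [psi, h2, N_append, Rt.N_pw hw.rt hw.rt hU hc hUc,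
          Rt.ns_eq hw.rt (Rt.pwc hw.rt hU hc hUc i) hc,
          hw.rt _ c _ (Rt.pwc hw.rt hU hc hUc i) hc (by simp),
          hr _ c _ (Rt.pwc hw.rt hU hc hUc i) hc (by simp)]
        have h3 : NS w (x :: V) c + ((i : ZMod p) * NS w U c + N w c) =
            (i : ZMod p) * NS w U c + (NS w (x :: V) c + N w c) := by ring
        rw [h3]
        show (if w (x :: (V ++ c)) = 0 then 0 else
          (if _ = ρ then u (x :: (V ++ c)) else 0) -
            (if _ = ρ + w (x :: (V ++ c)) then u (x :: (V ++ c)) else 0)) = _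
        by_cases h4 : w (x :: (V ++ c)) = 0
        · simp only [h4, if_true]
          simp
        · simp only [if_neg h4]
      rw [Finset.sum_congr rfl fun i _ => h1 i, Finset.sum_sub_distrib, sum_hits hS, sum_hits hS,
        sub_self]
  exact key U

theorem NS_add_smul (f g : List α → ZMod p) (lam : ZMod p) (S c : List α) :
    NS (fun X => f X + lam * g X) S c = NS f S c + lam * NS g S c := by
  induction S with
  | nil => simp [NS]
  | cons a S ih => rw [NS, ih, NS, NS]; ring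

theorem rowD3 : RowD3 := by
  intro α p _ w u hw hu hr ρ
  have hun : Unt w w := ⟨fun _ h => h, hw.fs, hw.ap, hw.rt, hw.ch⟩
  have hst := rowB1 α p w w hw hun ρ
  have hap := hu.2.1
  refine ⟨⟨FS.map (Bf_fs hw.fs hu.1 ρ) Prod.fst, Bf_ap hw hap hr ρ, 0, Bf_mem hw hr ρ⟩,
    ⟨phi_fs hw hu.1 ρ, phi_ap hw hap hr ρ, 1, Rt.mem (phi_rt hw hr ρ)⟩, fun lam => ?_⟩
  refine ⟨?_, ?_, ?_, ?_, ?_⟩
  · intro X hX h1
    apply hX
    rw [h1, phi_eq _ _ _ _ hw.nil, if_pos h1]
    ring
  · exact FS.map (FS.prod hst.fs (phi_fs hw hu.1 ρ)) fun q => q.1 + lam * q.2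
  · exact AP.map (AP.prod hst.ap (phi_ap hw hap hr ρ)) fun q => q.1 + lam * q.2
  · intro c c' r hc hc' hr0
    show rc w ρ _ + lam * phi w u ρ _ = rc w ρ _ + lam * phi w u ρ _
    rw [hst.rt c c' r hc hc' hr0, phi_rt hw hr ρ c c' r hc hc' hr0]
  · intro c v j hc hj hjc hmin
    obtain ⟨j0, h1, h2, h3, h4, h5⟩ := next_cyc hw hun ρ hc hj hjc hmin
    have h6 := (rc_sup hun ρ hc)
    rw [N_append, NS_add_smul, phi_NS, Bf_rho h6.2.1, Bf_rho (rc_sup hun ρ hjc).2.1, h2, pw_mul,
      next_sum hw hun ρ h4 h6.1 h3 h5, psi_sum hw hr ρ h4 h6.1 h3 h5]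
    intro h7
    apply h5
    have h8 : NS w (pw v j0) c + lam * (0 - 0 - 0) = 0 := by rwa [add_eq_right] at h7
    simpa using h8

end

end Vale.Agent.P329.H560
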